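import Vale.Agent.P085.Main

namespace Vale.Agent.Results.P085.SingleGen

open Vale.Agent.P085

theorem result {H : Type*} [NormedAddCommGroup H] [InnerProductSpace ℂ H] [CompleteSpace H]
    [TopologicalSpace.SeparableSpace H] (M : VonNeumannAlgebra H) (hM : IsII1Factor M) :
    ∃ x : H →L[ℂ] H,
      IsLeast {P : StarSubalgebra ℂ (H →L[ℂ] H) | WOTClosed (P : Set (H →L[ℂ] H)) ∧ x ∈ P}
        M.toStarSubalgebra :=
  main hM

end Vale.Agent.Results.P085.SingleGen
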